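import Mathlib

/-!
# P331: the one-coordinate inequality of the hypercontractive lemma (HC)
-/

set_option linter.all false

namespace Vale.Agent.P331.H318

/-- Upper bound on `[0, 1]` for `(1 - y) ^ n`. -/
theorem one_sub_pow_le (n : ℕ) {y : ℝ} (h0 : 0 ≤ y) (h1 : y ≤ 1) :
    (1 - y) ^ n ≤ 1 - n * y + (n * (n - 1) / 2 : ℝ) * y ^ 2 := by
  induction n with
  | zero => simp
  | succ n ih =>
    have h2 : 0 ≤ 1 - y := by linarith
    have h3 : (1 - y) ^ (n + 1) ≤ (1 - y) * (1 - n * y + (n * (n - 1) / 2 : ℝ) * y ^ 2) := by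
      rw [pow_succ, mul_comm]
      exact mul_le_mul_of_nonneg_left ih h2
    refine h3.trans ?_
    push_cast
    have h4 : 0 ≤ (n * (n - 1) / 2 : ℝ) := by
      rcases n with _ | n
      · simp
      · push_cast
        have : (0 : ℝ) ≤ n := Nat.cast_nonneg n
        nlinarith
    have h5 : 0 ≤ (n * (n - 1) / 2 : ℝ) * y ^ 3 := by positivity
    nlinarith [h5]

/-- Upper bound for `(1 + u) ^ n`. -/
theorem one_add_pow_le_small (n : ℕ) {u : ℝ} (h0 : 0 ≤ u) (h1 : u ≤ 1) :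
    (1 + u) ^ n ≤ 1 + n * u + (2 ^ n - 1 - n : ℝ) * u ^ 2 := by
  induction n with
  | zero => simp
  | succ n ih =>
    have h3 : (1 + u) ^ (n + 1) ≤ (1 + u) * (1 + n * u + (2 ^ n - 1 - n : ℝ) * u ^ 2) := by
      rw [pow_succ, mul_comm]
      exact mul_le_mul_of_nonneg_left ih (by linarith)
    refine h3.trans ?_
    push_cast
    have h4 : (0 : ℝ) ≤ 2 ^ n - 1 - n := by
      have : n + 1 ≤ 2 ^ n := Nat.lt_two_pow_self
      have h : ((n + 1 : ℕ) : ℝ) ≤ ((2 ^ n : ℕ) : ℝ) := by exact_mod_cast this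
      push_cast at h
      linarith
    have h5 : (2 ^ n - 1 - n : ℝ) * u ^ 3 ≤ (2 ^ n - 1 - n : ℝ) * u ^ 2 := by
      refine mul_le_mul_of_nonneg_left ?_ h4
      nlinarith [pow_nonneg h0 2]
    have h6 : (2 : ℝ) ^ (n + 1) = 2 * 2 ^ n := by rw [pow_succ]; ring
    rw [h6]
    nlinarith [h5]

theorem one_add_pow_le' {n : ℕ} {u : ℝ} (h0 : 0 ≤ u) :
    (1 + u) ^ n ≤ 1 + n * u + 2 ^ n * (u ^ 2 + u ^ n) := by
  have h2 : (0 : ℝ) ≤ 2 ^ n := by positivity
  have hn : (0 : ℝ) ≤ n := Nat.cast_nonneg n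
  rcases le_total u 1 with h1 | h1
  · refine (one_add_pow_le_small n h0 h1).trans ?_
    have h3 : (2 ^ n - 1 - n : ℝ) * u ^ 2 ≤ 2 ^ n * u ^ 2 :=
      mul_le_mul_of_nonneg_right (by linarith) (by positivity)
    have h4 : 0 ≤ 2 ^ n * u ^ n := by positivity
    nlinarith
  · have h3 : (1 + u) ^ n ≤ (2 * u) ^ n := pow_le_pow_left₀ (by linarith) (by linarith) n
    rw [mul_pow] at h3
    have h4 : 0 ≤ 2 ^ n * u ^ 2 := by positivity
    have h5 : 0 ≤ n * u := by positivity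
    nlinarith

/-- Lower bound for `(1 + y) ^ q`. -/
theorem one_add_pow_ge {q : ℕ} (hq : 2 ≤ q) {y : ℝ} (h0 : 0 ≤ y) :
    1 + q * y + y ^ q ≤ (1 + y) ^ q := by
  obtain ⟨k, rfl⟩ : ∃ k, q = k + 2 := ⟨q - 2, by omega⟩
  clear hq
  induction k with
  | zero =>
    push_cast
    nlinarith [sq_nonneg y]
  | succ k ih =>
    have h1 : (1 + y) ^ (k + 1 + 2) = (1 + y) ^ (k + 2) * (1 + y) := by
      rw [← pow_succ]
    rw [h1]
    have h2 : (1 + ((k + 2 : ℕ) : ℝ) * y + y ^ (k + 2)) * (1 + y) ≤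
        (1 + y) ^ (k + 2) * (1 + y) := mul_le_mul_of_nonneg_right ih (by linarith)
    refine le_trans ?_ h2
    have h3 : y ^ (k + 1 + 2) = y ^ (k + 2) * y := by rw [← pow_succ]
    rw [h3]
    push_cast
    have h4 : 0 ≤ y ^ (k + 2) := by positivity
    have hk : (0 : ℝ) ≤ k := Nat.cast_nonneg k
    nlinarith [mul_nonneg hk (sq_nonneg y), sq_nonneg y]

variable {q : ℕ} {o x s t p θ : ℝ}

/-- Normalised form, `b ≤ a = 1`. -/
theorem hc_le (hq : 1 ≤ q) (hx : 0 ≤ x) (hs : 0 ≤ s) (ht : 0 ≤ t) (ht1 : t ≤ 1)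
    (hT : x + s * t ≤ 1)
    (h1 : (2 * q - 1 : ℝ) * (x + s * t ^ 2) ≤ x + s * t) {y : ℝ} (hy : 0 ≤ y) (hy1 : y ≤ 1) :
    (1 - x - s) + x * (1 - y) ^ (2 * q) + s * (1 - t * y) ^ (2 * q) ≤
      ((1 - (x + s * t)) + (x + s * t) * (1 - y) ^ 2) ^ q := by
  have e1 := one_sub_pow_le (2 * q) hy hy1
  have e2 := one_sub_pow_le (2 * q) (mul_nonneg ht hy) (mul_le_one₀ ht1 hy hy1)
  have e3 : 1 + (q : ℝ) * (-((x + s * t) * (2 * y - y ^ 2))) ≤
      (1 + (-((x + s * t) * (2 * y - y ^ 2)))) ^ q := by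
    refine one_add_mul_le_pow ?_ q
    have : (x + s * t) * (2 * y - y ^ 2) ≤ 1 * 1 :=
      mul_le_mul hT (by nlinarith [sq_nonneg (y - 1)]) (by nlinarith) (by norm_num)
    linarith
  have e4 : (1 - (x + s * t)) + (x + s * t) * (1 - y) ^ 2 =
      1 + (-((x + s * t) * (2 * y - y ^ 2))) := by ring
  rw [e4]
  refine le_trans ?_ e3
  push_cast at e1 e2
  have f1 := mul_le_mul_of_nonneg_left e1 hx
  have f2 := mul_le_mul_of_nonneg_left e2 hs
  have hy2 : 0 ≤ y ^ 2 := by positivity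
  have hq0 : (0 : ℝ) ≤ q := Nat.cast_nonneg q
  have f3 := mul_le_mul_of_nonneg_left (mul_le_mul_of_nonneg_right h1 hy2) hq0
  nlinarith [f1, f2, f3]

/-- Normalised form, `a = 1`, `b = 1 + u`. -/
theorem hc_ge (hq : 2 ≤ q) (hx : 0 ≤ x) (hs : 0 ≤ s) (ht : 0 ≤ t) (hp : 0 ≤ p)
    (h2 : 4 ^ q * (x + s * t ^ 2) ≤ q * (x + s * t))
    (h3 : 4 ^ q * (x + s * t ^ (2 * q)) + p ≤ (x + s * t) ^ q) {u : ℝ} (hu : 0 ≤ u) :
    (1 - x - s) + x * (1 + u) ^ (2 * q) + s * (1 + t * u) ^ (2 * q) + p * u ^ (2 * q) ≤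
      ((1 - (x + s * t)) + (x + s * t) * (1 + u) ^ 2) ^ q := by
  have e1 := one_add_pow_le' (n := 2 * q) hu
  have e2 := one_add_pow_le' (n := 2 * q) (mul_nonneg ht hu)
  obtain ⟨T, hT⟩ : ∃ T, T = x + s * t := ⟨_, rfl⟩
  have hT0 : 0 ≤ T := by rw [hT]; positivity
  have e3 : 1 + (q : ℝ) * (T * (2 * u + u ^ 2)) + (T * (2 * u + u ^ 2)) ^ q ≤
      (1 + T * (2 * u + u ^ 2)) ^ q := one_add_pow_ge hq (by positivity)
  have e4 : (1 - (x + s * t)) + (x + s * t) * (1 + u) ^ 2 = 1 + T * (2 * u + u ^ 2) := by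
    rw [hT]; ring
  have e5 : T ^ q * u ^ (2 * q) ≤ (T * (2 * u + u ^ 2)) ^ q := by
    rw [pow_mul, ← mul_pow]
    refine pow_le_pow_left₀ (by positivity) (mul_le_mul_of_nonneg_left (by linarith) hT0) q
  have e6 : (2 : ℝ) ^ (2 * q) = 4 ^ q := by rw [pow_mul]; norm_num
  rw [e4]
  refine le_trans ?_ e3
  rw [e6] at e1 e2
  push_cast at e1 e2
  have f1 := mul_le_mul_of_nonneg_left e1 hx
  have f2 := mul_le_mul_of_nonneg_left e2 hs
  have hu2 : 0 ≤ u ^ 2 := by positivity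
  have huq : 0 ≤ u ^ (2 * q) := by positivity
  rw [← hT] at h2 h3
  have f3 := mul_le_mul_of_nonneg_right h2 hu2
  have f4 := mul_le_mul_of_nonneg_right h3 huq
  have e7 : (t * u) ^ (2 * q) = t ^ (2 * q) * u ^ (2 * q) := mul_pow _ _ _
  rw [e7] at f2
  rw [hT] at f3 f4 e5 ⊢
  nlinarith [f1, f2, f3, f4, e5]

/-- The one-coordinate inequality of (HC). -/
theorem hc_scalar (hq : 2 ≤ q) (hx : 0 ≤ x) (hs : 0 ≤ s) (ht : 0 ≤ t) (ht1 : t ≤ 1)
    (hp : 0 ≤ p) (hθ : 0 ≤ θ) (hθ1 : θ ≤ 1 / 2) (hsum : x + s + p ≤ 1)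
    (h1 : (2 * q - 1 : ℝ) * (x + s * t ^ 2) ≤ x + s * t)
    (h2 : 4 ^ q * (x + s * t ^ 2) ≤ q * (x + s * t))
    (h3 : 4 ^ q * (x + s * t ^ (2 * q)) + p ≤ (x + s * t) ^ q) {a b : ℝ} (ha : 0 ≤ a)
    (hb : 0 ≤ b) :
    (1 - x - s - p) * a ^ (2 * q) + x * b ^ (2 * q) + s * ((1 - t) * a + t * b) ^ (2 * q) +
      p * (max a (θ * b)) ^ (2 * q) ≤
      ((1 - (x + s * t)) * a ^ 2 + (x + s * t) * b ^ 2) ^ q := by
  have hT1 : x + s * t ≤ 1 := by nlinarith
  rcases eq_or_lt_of_le ha with ha0 | ha0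
  · subst ha0
    rw [max_eq_right (mul_nonneg hθ hb)]
    have hbq : 0 ≤ b ^ (2 * q) := by positivity
    have e0 : (0 : ℝ) ^ (2 * q) = 0 := zero_pow (by omega)
    have e1 : ((1 - (x + s * t)) * (0 : ℝ) ^ 2 + (x + s * t) * b ^ 2) ^ q =
        (x + s * t) ^ q * b ^ (2 * q) := by
      rw [pow_mul, ← mul_pow]; congr 1; ring
    have e2 : ((1 - t) * 0 + t * b) ^ (2 * q) = t ^ (2 * q) * b ^ (2 * q) := by
      rw [← mul_pow]; congr 1; ring
    have e3 : (θ * b) ^ (2 * q) ≤ b ^ (2 * q) :=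
      pow_le_pow_left₀ (mul_nonneg hθ hb) (by nlinarith) _
    rw [e0, e1, e2]
    have e4 : p * (θ * b) ^ (2 * q) ≤ p * b ^ (2 * q) := mul_le_mul_of_nonneg_left e3 hp
    have e5 := mul_le_mul_of_nonneg_right h3 hbq
    have e6 : (1 : ℝ) ≤ 4 ^ q := one_le_pow₀ (by norm_num)
    have e7 : x * b ^ (2 * q) ≤ 4 ^ q * (x * b ^ (2 * q)) := by
      have : 0 ≤ x * b ^ (2 * q) := by positivity
      nlinarith
    have e8 : s * t ^ (2 * q) * b ^ (2 * q) ≤ 4 ^ q * (s * t ^ (2 * q) * b ^ (2 * q)) := by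
      have : 0 ≤ s * t ^ (2 * q) * b ^ (2 * q) := by positivity
      nlinarith
    nlinarith [e4, e5, e7, e8]
  · -- normalise
    obtain ⟨c, hc⟩ : ∃ c, c = b / a := ⟨_, rfl⟩
    have hb' : b = a * c := by rw [hc]; field_simp
    have hc0 : 0 ≤ c := by rw [hc]; positivity
    have key : (1 - x - s - p) + x * c ^ (2 * q) + s * ((1 - t) + t * c) ^ (2 * q) +
        p * (max 1 (θ * c)) ^ (2 * q) ≤ ((1 - (x + s * t)) + (x + s * t) * c ^ 2) ^ q := by
      rcases le_total c 1 with h | h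
      · have e1 : max 1 (θ * c) = 1 := max_eq_left (by nlinarith)
        rw [e1, one_pow]
        have e2 := hc_le (by omega) hx hs ht ht1 hT1 h1 (y := 1 - c) (by linarith) (by linarith)
        have e3 : 1 - (1 - c) = c := by ring
        have e4 : 1 - t * (1 - c) = (1 - t) + t * c := by ring
        rw [e3, e4] at e2
        linarith
      · have e2 := hc_ge hq hx hs ht hp h2 h3 (u := c - 1) (by linarith)
        have e3 : 1 + (c - 1) = c := by ring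
        have e4 : 1 + t * (c - 1) = (1 - t) + t * c := by ring
        rw [e3, e4] at e2
        have e5 : (max 1 (θ * c)) ^ (2 * q) ≤ 1 + (c - 1) ^ (2 * q) := by
          have h0 : 0 ≤ (c - 1) ^ (2 * q) := pow_nonneg (by linarith) _
          rcases le_total (θ * c) 1 with h' | h'
          · rw [max_eq_left h', one_pow]
            linarith
          · rw [max_eq_right h']
            have : (θ * c) ^ (2 * q) ≤ (c - 1) ^ (2 * q) :=
              pow_le_pow_left₀ (by linarith) (by nlinarith) _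
            linarith
        have e6 := mul_le_mul_of_nonneg_left e5 hp
        linarith
    have haq : 0 ≤ a ^ (2 * q) := by positivity
    have e1 := mul_le_mul_of_nonneg_left key haq
    have e2 : max a (θ * b) = a * max 1 (θ * c) := by
      rw [mul_max_of_nonneg _ _ ha, hb']
      congr 1 <;> ring
    have e3 : (1 - t) * a + t * b = a * ((1 - t) + t * c) := by rw [hb']; ring
    have e4 : (1 - (x + s * t)) * a ^ 2 + (x + s * t) * b ^ 2 =
        a ^ 2 * ((1 - (x + s * t)) + (x + s * t) * c ^ 2) := by rw [hb']; ring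
    rw [e2, e3, e4, mul_pow, mul_pow, mul_pow, hb', mul_pow, ← pow_mul]
    nlinarith [e1]

end Vale.Agent.P331.H318
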