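import Vale.Agent.P331.H316.Rows
import Vale.Agent.P331.H318.HCS

/-!
# P331: the one-coordinate inequality, sharp in the price `θ`
-/

set_option linter.all false

namespace Vale.Agent.P331.H318

open Vale.Agent.P331.H316

theorem pow_diff_ge (q : ℕ) {T Y : ℝ} (hT : 0 ≤ T) (hT1 : T ≤ 1) (hY : 0 ≤ Y) :
    1 - T ^ q ≤ (1 + Y) ^ q - (T + Y) ^ q := by
  induction q with
  | zero => simp
  | succ q ih =>
    have h1 : T ^ q ≤ (T + Y) ^ q := pow_le_pow_left₀ hT (by linarith) q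
    have h2 : T ^ q ≤ 1 := pow_le_one₀ hT hT1
    have h3 := mul_le_mul_of_nonneg_left h1 (by linarith : (0 : ℝ) ≤ 1 - T)
    have h4 := mul_le_mul_of_nonneg_left ih (by linarith : (0 : ℝ) ≤ 1 + Y)
    have h5 : 0 ≤ Y * (1 - T ^ q) := mul_nonneg hY (by linarith)
    have e1 : (1 + Y) ^ (q + 1) - (T + Y) ^ (q + 1) =
        (1 + Y) * ((1 + Y) ^ q - (T + Y) ^ q) + (1 - T) * (T + Y) ^ q := by ring
    rw [e1]
    have e2 : T ^ (q + 1) = T * T ^ q := by ring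
    rw [e2]
    nlinarith [h3, h4, h5]

/-- `(A + B) ^ q ≥ A ^ q + q B` for `A ≥ 1`. -/
theorem add_pow_ge_one (q : ℕ) {A B : ℝ} (hA : 1 ≤ A) (hB : 0 ≤ B) :
    A ^ q + q * B ≤ (A + B) ^ q := by
  induction q with
  | zero => simp
  | succ q ih =>
    have h1 := mul_le_mul_of_nonneg_right ih (by linarith : (0 : ℝ) ≤ A + B)
    have h2 : (1 : ℝ) ≤ A ^ q := one_le_pow₀ hA
    have h3 := mul_le_mul_of_nonneg_right h2 hB
    have h4 : (0 : ℝ) ≤ q * B * B := by positivity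
    have h5 : (q : ℝ) * B * 1 ≤ q * B * A := mul_le_mul_of_nonneg_left hA (by positivity)
    have e1 : (A + B) ^ (q + 1) = (A + B) ^ q * (A + B) := pow_succ _ _
    have e2 : A ^ (q + 1) = A ^ q * A := pow_succ _ _
    rw [e1, e2]
    push_cast
    nlinarith [h1, h3, h4, h5]

/-- The gain. -/
noncomputable def gM (q : ℕ) (T u : ℝ) : ℝ := (1 + T * (2 * u + u ^ 2)) ^ q - 1 - 2 * q * T * u

theorem gM_ge (q : ℕ) {T u : ℝ} (hT : 0 ≤ T) (hu : 0 ≤ u) :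
    (1 + T * u ^ 2) ^ q - 1 ≤ gM q T u := by
  have h := add_pow_ge_one q (A := 1 + T * u ^ 2) (B := 2 * T * u)
    (by nlinarith [mul_nonneg hT (sq_nonneg u)]) (by positivity)
  have e : 1 + T * u ^ 2 + 2 * T * u = 1 + T * (2 * u + u ^ 2) := by ring
  rw [e] at h
  unfold gM
  linarith

theorem gM_ge' (q : ℕ) {T u : ℝ} (hT : 0 ≤ T) (hu : 0 ≤ u) :
    q * (T * u ^ 2) ≤ gM q T u := by
  refine le_trans ?_ (gM_ge q hT hu)
  have := one_add_mul_le_pow (a := T * u ^ 2) (by nlinarith [mul_nonneg hT (sq_nonneg u)]) q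
  linarith

theorem gM_nonneg (q : ℕ) {T u : ℝ} (hT : 0 ≤ T) (hu : 0 ≤ u) : 0 ≤ gM q T u :=
  le_trans (by positivity) (gM_ge' q hT hu)

/-- (X) -/
theorem gM_X (q : ℕ) {T u : ℝ} (hT : 0 ≤ T) (hT1 : T ≤ 1) (hu : 0 ≤ u) :
    T ^ q * ((1 + u) ^ (2 * q) - 1 - 2 * q * u) ≤ gM q T u := by
  induction q with
  | zero => simp [gM]
  | succ q ih =>
    obtain ⟨h, hh⟩ : ∃ h, h = 2 * u + u ^ 2 := ⟨_, rfl⟩
    have hh2 : 2 * u ≤ h := by rw [hh]; nlinarith [sq_nonneg u]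
    have hh0 : 0 ≤ h := by linarith
    have e0 : (1 + u) ^ 2 = 1 + h := by rw [hh]; ring
    have hM : 0 ≤ gM q T u := gM_nonneg q hT hu
    unfold gM at ih hM ⊢
    rw [← hh] at ih hM ⊢
    rw [pow_mul, e0] at ih ⊢
    have h1 := pow_diff_ge q hT hT1 (mul_nonneg hT hh0)
    have hTq : T ^ q ≤ 1 := pow_le_one₀ hT hT1
    have e1 : (T + T * h) ^ q = T ^ q * (1 + h) ^ q := by rw [← mul_pow]; ring
    rw [e1] at h1
    -- 2u (1 - T^q) ≤ h [(1+Th)^q - T^q (1+h)^q]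
    have h2 : 2 * u * (1 - T ^ q) ≤ h * ((1 + T * h) ^ q - T ^ q * (1 + h) ^ q) :=
      mul_le_mul hh2 h1 (by linarith) hh0
    have h3 := mul_le_mul_of_nonneg_left h2 hT
    have h4 := mul_le_mul_of_nonneg_left ih hT
    have h5 : T * ((1 + T * h) ^ q - 1 - 2 * q * T * u) ≤
        1 * ((1 + T * h) ^ q - 1 - 2 * q * T * u) := mul_le_mul_of_nonneg_right hT1 hM
    have e2 : (1 + T * h) ^ (q + 1) = (1 + T * h) ^ q * (1 + T * h) := pow_succ _ _
    have e3 : (1 + h) ^ (q + 1) = (1 + h) ^ q * (1 + h) := pow_succ _ _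
    have e4 : T ^ (q + 1) = T * T ^ q := by ring
    rw [e2, e3, e4]
    push_cast
    nlinarith [h3, h4, h5]

/-- `(1 + z) ^ n - 1 - n z ≤ (n (n-1) / 2) z ^ 2 (1 + z) ^ (n-2)`. -/
theorem pow_taylor2 (n : ℕ) {z : ℝ} (hz : 0 ≤ z) :
    (1 + z) ^ (n + 2) - 1 - (n + 2 : ℝ) * z ≤
      ((n + 2) * (n + 1) / 2 : ℝ) * z ^ 2 * (1 + z) ^ n := by
  induction n with
  | zero => norm_num; nlinarith
  | succ n ih =>
    have h1 := mul_le_mul_of_nonneg_right ih (by linarith : (0 : ℝ) ≤ 1 + z)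
    have h2 : (1 : ℝ) + (n + 2 - 1) * z ≤ (1 + z) ^ (n + 1) := by
      have := one_add_mul_le_pow (a := z) (by linarith) (n + 1)
      push_cast at this
      linarith
    have h3 : (1 : ℝ) ≤ (1 + z) ^ (n + 1) := one_le_pow₀ (by linarith)
    have hn : (0 : ℝ) ≤ n := Nat.cast_nonneg n
    have h4 : (n + 2 : ℝ) * z ^ 2 * 1 ≤ (n + 2 : ℝ) * z ^ 2 * (1 + z) ^ (n + 1) :=
      mul_le_mul_of_nonneg_left h3 (by positivity)
    have e1 : (1 + z) ^ (n + 1 + 2) = (1 + z) ^ (n + 2) * (1 + z) := by ring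
    have e2 : (1 + z) ^ (n + 1) = (1 + z) ^ n * (1 + z) := pow_succ _ _
    rw [e2] at h4 ⊢
    rw [e1]
    push_cast
    nlinarith [h1, h4]

/-- (S) -/
theorem gM_S {q : ℕ} (hq : 1 ≤ q) {T t u : ℝ} (hT : 0 < T) (ht : 0 ≤ t) (hu : 0 ≤ u)
    (h : 16 * q ^ 2 * t ^ 2 ≤ T) :
    (1 + t * u) ^ (2 * q) - 1 - 2 * q * (t * u) ≤ gM q T u / 4 := by
  obtain ⟨k, rfl⟩ : ∃ k, q = k + 1 := ⟨q - 1, by omega⟩
  have h1 := pow_taylor2 (2 * k) (mul_nonneg ht hu)
  have hk : (0 : ℝ) ≤ k := Nat.cast_nonneg k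
  push_cast at h h1
  have e0 : 2 * k + 2 = 2 * (k + 1) := by ring
  rw [e0] at h1
  -- r = t^2 / T
  obtain ⟨r, hr⟩ : ∃ r, r = t ^ 2 / T := ⟨_, rfl⟩
  have hr0 : 0 ≤ r := by rw [hr]; positivity
  have hrT : t ^ 2 = r * T := by rw [hr]; field_simp
  have hr1 : 16 * (k + 1) ^ 2 * r ≤ 1 := by
    have : 16 * (k + 1) ^ 2 * r * T ≤ 1 * T := by
      rw [one_mul, mul_assoc, ← hrT]; exact h
    exact le_of_mul_le_mul_right this hT
  -- (1+tu)^2 ≤ (1+r)(1+T u^2)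
  have h2 : (1 + t * u) ^ 2 ≤ (1 + r) * (1 + T * u ^ 2) := by
    have h3 : 2 * (t * u) ≤ r + T * u ^ 2 := by
      have h4 : 0 ≤ (t - T * u) ^ 2 := sq_nonneg _
      have h5 : 2 * (t * u) * T ≤ (r + T * u ^ 2) * T := by
        nlinarith [hrT]
      exact le_of_mul_le_mul_right h5 hT
    have e1 : (t * u) ^ 2 = r * T * u ^ 2 := by rw [mul_pow, hrT]
    nlinarith [e1, h3]
  have h3 : ((1 + t * u) ^ 2) ^ k ≤ ((1 + r) * (1 + T * u ^ 2)) ^ k :=
    pow_le_pow_left₀ (by positivity) h2 k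
  rw [← pow_mul, mul_pow] at h3
  -- (1+r)^k ≤ 2
  have h4 : (1 + r) ^ k ≤ 2 := by
    have h5 : (1 + r) ^ k * (1 - k * r) ≤ 1 := by
      have h6 : 1 - k * r ≤ (1 - r) ^ k := by
        have := one_add_mul_le_pow (a := -r) (by nlinarith) k
        rw [← sub_eq_add_neg] at this
        linarith
      have h7 : (1 + r) ^ k * (1 - r) ^ k ≤ 1 := by
        rw [← mul_pow]
        have hr2 : r ≤ 1 := by nlinarith
        refine pow_le_one₀ (mul_nonneg (by linarith) (by linarith)) (by nlinarith)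
      have h8 : 0 ≤ (1 + r) ^ k := by positivity
      nlinarith [mul_le_mul_of_nonneg_left h6 h8]
    have h6 : k * r ≤ 1 / 2 := by nlinarith
    have h8 : 0 ≤ (1 + r) ^ k := by positivity
    nlinarith
  have hY : 0 ≤ T * u ^ 2 := by positivity
  have h5 := gM_ge (k + 1) hT.le hu
  obtain ⟨Z, hZ⟩ : ∃ Z, Z = (1 + T * u ^ 2) ^ k := ⟨_, rfl⟩
  have hZ1 : 1 ≤ Z := by rw [hZ]; exact one_le_pow₀ (by linarith)
  rw [pow_succ, ← hZ] at h5
  rw [← hZ] at h3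
  have h6 : (1 + t * u) ^ (2 * k) ≤ 2 * Z := by nlinarith
  refine h1.trans ?_ |>.trans (div_le_div_of_nonneg_right (h5) (by norm_num)) |>.trans' ?_
  · -- coefficient
    have h7 : ((2 * k + 2) * (2 * k + 1) / 2 : ℝ) * (t * u) ^ 2 =
        ((k + 1) * (2 * k + 1) * r : ℝ) * (T * u ^ 2) := by
      rw [mul_pow, hrT]; ring
    have h8 : ((k + 1) * (2 * k + 1) * r : ℝ) ≤ 1 / 8 := by nlinarith
    rw [h7]
    have h9 : ((k + 1) * (2 * k + 1) * r : ℝ) * (T * u ^ 2) ≤ 1 / 8 * (T * u ^ 2) :=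
      mul_le_mul_of_nonneg_right h8 hY
    have h10 : ((k + 1) * (2 * k + 1) * r : ℝ) * (T * u ^ 2) * (1 + t * u) ^ (2 * k) ≤
        (1 / 8 * (T * u ^ 2)) * (2 * Z) :=
      mul_le_mul h9 h6 (by positivity) (by positivity)
    nlinarith [h10, mul_nonneg hY (by linarith : (0 : ℝ) ≤ Z - 1)]
  · push_cast
    linarith

theorem pow_sub_lin_mono (n : ℕ) {y u : ℝ} (hy : 0 ≤ y) (hyu : y ≤ u) :
    (1 + y) ^ n - 1 - n * y ≤ (1 + u) ^ n - 1 - n * u := by
  have h := add_pow_ge_one n (A := 1 + y) (B := u - y) (by linarith) (by linarith)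
  have e : 1 + y + (u - y) = 1 + u := by ring
  rw [e] at h
  linarith

/-- (P) -/
theorem gM_P {q : ℕ} {T p θ u : ℝ} (hT : 0 ≤ T) (hT1 : T ≤ 1) (hp : 0 ≤ p)
    (hθ1 : θ ≤ 1) (hu : 0 ≤ u) (h1 : p ≤ T ^ q / 8) (h2 : 4 * p ≤ (1 - θ) * T) :
    p * ((max 1 (θ * (1 + u))) ^ (2 * q) - 1) ≤ gM q T u / 4 := by
  have hM := gM_nonneg q hT hu
  rcases le_total (θ * (1 + u)) 1 with h | h
  · rw [max_eq_left h, one_pow]
    linarith
  · rw [max_eq_right h]
    obtain ⟨y, hy⟩ : ∃ y, y = θ * (1 + u) - 1 := ⟨_, rfl⟩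
    have hy0 : 0 ≤ y := by linarith
    have hyu : y ≤ u - (1 - θ) := by rw [hy]; nlinarith
    have hyu' : y ≤ u := by linarith
    have e : θ * (1 + u) = 1 + y := by rw [hy]; ring
    rw [e]
    have h3 := pow_sub_lin_mono (2 * q) hy0 hyu'
    push_cast at h3
    have h4 := gM_X q hT hT1 hu
    have h5 : 0 ≤ (1 + y) ^ (2 * q) - 1 - 2 * q * y := by
      have := one_add_mul_le_pow (a := y) (by linarith) (2 * q)
      push_cast at this
      linarith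
    have h6 : p * ((1 + y) ^ (2 * q) - 1 - 2 * q * y) ≤ gM q T u / 8 := by
      have h7 : p * ((1 + y) ^ (2 * q) - 1 - 2 * q * y) ≤
          (T ^ q / 8) * ((1 + u) ^ (2 * q) - 1 - 2 * q * u) :=
        mul_le_mul h1 h3 h5 (by positivity)
      linarith
    have h7 : 16 * (p * y) ≤ T * u ^ 2 := by
      have h8 : 4 * p * y ≤ (1 - θ) * T * y := mul_le_mul_of_nonneg_right h2 hy0
      have h9 : (1 - θ) * T * y ≤ (1 - θ) * T * (u - (1 - θ)) :=
        mul_le_mul_of_nonneg_left hyu (mul_nonneg (by linarith) hT)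
      have h10 : 0 ≤ T * (u - 2 * (1 - θ)) ^ 2 := by positivity
      nlinarith
    have h8 := gM_ge' q hT hu
    have hq0 : (0 : ℝ) ≤ q := Nat.cast_nonneg q
    have h9 := mul_le_mul_of_nonneg_left h7 hq0
    nlinarith

theorem combine_aux {x s t p u A B C G q : ℝ}
    (eX : x * (A - 1 - 2 * q * u) ≤ (G - 1 - 2 * q * (x + s * t) * u) / 4)
    (eS : s * (B - 1 - 2 * q * (t * u)) ≤ (G - 1 - 2 * q * (x + s * t) * u) / 4)
    (eP : p * (C - 1) ≤ (G - 1 - 2 * q * (x + s * t) * u) / 4)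
    (hM : 0 ≤ G - 1 - 2 * q * (x + s * t) * u) :
    (1 - p - x - s) + x * A + s * B + p * C ≤ G := by
  linarith

theorem combine_aux2 {x s p w X A B C G : ℝ}
    (e : X * (w + x * A + s * B + p * C) ≤ X * G) :
    w * X + x * (X * A) + s * (X * B) + p * (X * C) ≤ X * G := by
  have : X * (w + x * A + s * B + p * C) = w * X + x * (X * A) + s * (X * B) + p * (X * C) := by
    ring
  linarith

/-- The one-coordinate inequality, with a price `θ` up to `1 - 4 p / Θ`. -/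
theorem hc_scalar_sharp {q : ℕ} {x s t p θ : ℝ} (hq : 1 ≤ q) (hx : 0 ≤ x) (hs : 0 ≤ s)
    (ht : 0 ≤ t) (ht1 : t ≤ 1) (hp : 0 ≤ p) (hθ : 0 ≤ θ) (hθ1 : θ ≤ 1) (hsum : p + x + s ≤ 1)
    (hT : 0 < x + s * t) (h1 : 4 * x ≤ (x + s * t) ^ q) (h2 : 16 * q ^ 2 * t ^ 2 ≤ x + s * t)
    (h3 : 4 * q * x ≤ x + s * t) (h4 : 8 * p ≤ (x + s * t) ^ q)
    (h5 : 4 * p ≤ (1 - θ) * (x + s * t)) {a b : ℝ} (ha : 0 ≤ a) (hb : 0 ≤ b) :
    (1 - p - x - s) * a ^ (2 * q) + x * b ^ (2 * q) + s * ((1 - t) * a + t * b) ^ (2 * q) +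
      p * (max a (θ * b)) ^ (2 * q) ≤
      ((1 - (x + s * t)) * a ^ 2 + (x + s * t) * b ^ 2) ^ q := by
  have hq1 : (1 : ℝ) ≤ q := by exact_mod_cast hq
  have hs1 : s ≤ 1 := by linarith
  have hT1 : x + s * t ≤ 1 := by nlinarith
  have hst2 : s * t ^ 2 ≤ t ^ 2 := by nlinarith [sq_nonneg t]
  have hle : (2 * q - 1 : ℝ) * (x + s * t ^ 2) ≤ x + s * t := by
    have e1 : (2 * q - 1 : ℝ) * (x + s * t ^ 2) ≤ 2 * q * (x + t ^ 2) := by
      refine mul_le_mul (by linarith) (by linarith) (by positivity) (by positivity)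
    have e2 : 2 * (q : ℝ) * t ^ 2 ≤ 2 * q ^ 2 * t ^ 2 :=
      mul_le_mul_of_nonneg_right (by nlinarith) (sq_nonneg t)
    nlinarith
  rcases eq_or_lt_of_le ha with ha0 | ha0
  · subst ha0
    rw [max_eq_right (mul_nonneg hθ hb)]
    have hbq : 0 ≤ b ^ (2 * q) := by positivity
    have e0 : (0 : ℝ) ^ (2 * q) = 0 := zero_pow (by omega)
    have e1 : ((1 - (x + s * t)) * (0 : ℝ) ^ 2 + (x + s * t) * b ^ 2) ^ q =
        (x + s * t) ^ q * b ^ (2 * q) := by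
      rw [pow_mul, ← mul_pow]; congr 1; ring
    have e2 : ((1 - t) * 0 + t * b) ^ (2 * q) = t ^ (2 * q) * b ^ (2 * q) := by
      rw [← mul_pow]; congr 1; ring
    have e3 : (θ * b) ^ (2 * q) ≤ b ^ (2 * q) :=
      pow_le_pow_left₀ (mul_nonneg hθ hb) (by nlinarith) _
    rw [e0, e1, e2]
    have e4 : p * (θ * b) ^ (2 * q) ≤ p * b ^ (2 * q) := mul_le_mul_of_nonneg_left e3 hp
    have e5 : s * t ^ (2 * q) ≤ (x + s * t) ^ q / 16 := by
      have f1 : s * t ^ (2 * q) ≤ 1 * t ^ (2 * q) :=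
        mul_le_mul_of_nonneg_right hs1 (by positivity)
      have f2 : t ^ (2 * q) ≤ ((x + s * t) / 16) ^ q := by
        rw [pow_mul]
        refine pow_le_pow_left₀ (sq_nonneg t) ?_ q
        nlinarith [sq_nonneg t, mul_nonneg (by nlinarith : (0 : ℝ) ≤ (q : ℝ) ^ 2 - 1) (sq_nonneg t)]
      have f3 : ((x + s * t) / 16) ^ q ≤ (x + s * t) ^ q / 16 := by
        rw [div_pow]
        refine div_le_div_of_nonneg_left (by positivity) (by norm_num) ?_
        calc (16 : ℝ) = 16 ^ 1 := by norm_num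
          _ ≤ 16 ^ q := pow_le_pow_right₀ (by norm_num) hq
      linarith
    have hTq : 0 ≤ (x + s * t) ^ q := by positivity
    have e6 := mul_le_mul_of_nonneg_right (by linarith : x + s * t ^ (2 * q) + p ≤
      (x + s * t) ^ q) hbq
    nlinarith [e4, e6]
  · obtain ⟨c, hc⟩ : ∃ c, c = b / a := ⟨_, rfl⟩
    have hb' : b = a * c := by rw [hc]; field_simp
    have hc0 : 0 ≤ c := by rw [hc]; positivity
    have key : (1 - p - x - s) + x * c ^ (2 * q) + s * ((1 - t) + t * c) ^ (2 * q) +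
        p * (max 1 (θ * c)) ^ (2 * q) ≤ ((1 - (x + s * t)) + (x + s * t) * c ^ 2) ^ q := by
      rcases le_total c 1 with h | h
      · have e1 : max 1 (θ * c) = 1 := max_eq_left (by nlinarith)
        rw [e1, one_pow]
        have e2 := hc_le hq hx hs ht ht1 hT1 hle (y := 1 - c) (by linarith) (by linarith)
        have e3 : 1 - (1 - c) = c := by ring
        have e4 : 1 - t * (1 - c) = (1 - t) + t * c := by ring
        rw [e3, e4] at e2
        linarith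
      · obtain ⟨u, hu⟩ : ∃ u, u = c - 1 := ⟨_, rfl⟩
        have hu0 : 0 ≤ u := by linarith
        have hcu : c = 1 + u := by rw [hu]; ring
        have hM := gM_nonneg q hT.le hu0
        have eX := gM_X q hT.le hT1 hu0
        have eS := gM_S hq hT ht hu0 h2
        have eP := gM_P (q := q) hT.le hT1 hp hθ1 hu0 (by linarith) h5
        have eX0 : 0 ≤ (1 + u) ^ (2 * q) - 1 - 2 * q * u := by
          have := one_add_mul_le_pow (a := u) (by linarith) (2 * q)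
          push_cast at this
          linarith
        have eX' : x * ((1 + u) ^ (2 * q) - 1 - 2 * q * u) ≤ gM q (x + s * t) u / 4 := by
          have := mul_le_mul_of_nonneg_right (by linarith : x ≤ (x + s * t) ^ q / 4) eX0
          linarith
        have eS0 : 0 ≤ (1 + t * u) ^ (2 * q) - 1 - 2 * q * (t * u) := by
          have := one_add_mul_le_pow (a := t * u) (by nlinarith [mul_nonneg ht hu0]) (2 * q)
          push_cast at this
          linarith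
        have eS' : s * ((1 + t * u) ^ (2 * q) - 1 - 2 * q * (t * u)) ≤
            gM q (x + s * t) u / 4 := by
          have := mul_le_mul_of_nonneg_right hs1 eS0
          linarith
        have e4 : (1 - t) + t * c = 1 + t * u := by rw [hcu]; ring
        have e5 : (1 - (x + s * t)) + (x + s * t) * c ^ 2 =
            1 + (x + s * t) * (2 * u + u ^ 2) := by rw [hcu]; ring
        rw [e4, e5, hcu]
        unfold gM at eX' eS' eP hM
        exact combine_aux eX' eS' eP hM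
    have haq : 0 ≤ a ^ (2 * q) := by positivity
    have e1 := mul_le_mul_of_nonneg_left key haq
    have e2 : max a (θ * b) = a * max 1 (θ * c) := by
      rw [mul_max_of_nonneg _ _ ha, hb']
      congr 1 <;> ring
    have e3 : (1 - t) * a + t * b = a * ((1 - t) + t * c) := by rw [hb']; ring
    have e4 : (1 - (x + s * t)) * a ^ 2 + (x + s * t) * b ^ 2 =
        a ^ 2 * ((1 - (x + s * t)) + (x + s * t) * c ^ 2) := by rw [hb']; ring
    rw [e2, e3, e4, mul_pow, mul_pow, mul_pow, hb', mul_pow, ← pow_mul]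
    exact combine_aux2 e1

/-- `OneC` from the hypotheses of `hc_scalar`. -/
theorem oneC_of {q : ℕ} {x s t p θ : ℝ} (hq : 2 ≤ q) (hx : 0 ≤ x) (hs : 0 ≤ s) (ht : 0 ≤ t)
    (ht1 : t ≤ 1) (hp : 0 ≤ p) (hθ : 0 ≤ θ) (hθ1 : θ ≤ 1 / 2) (hsum : p + x + s ≤ 1)
    (h1 : (2 * q - 1 : ℝ) * (x + s * t ^ 2) ≤ x + s * t)
    (h2 : 4 ^ q * (x + s * t ^ 2) ≤ q * (x + s * t))
    (h3 : 4 ^ q * (x + s * t ^ (2 * q)) + p ≤ (x + s * t) ^ q) : OneC q p x s t θ := by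
  intro a b ha hb
  have := hc_scalar hq hx hs ht ht1 hp hθ hθ1 (by linarith) h1 h2 h3 ha hb
  have e : 1 - p - x - s = 1 - x - s - p := by ring
  rw [e]
  exact this

/-- `OneC` with a price near one. -/
theorem oneC_sharp {q : ℕ} {x s t p θ : ℝ} (hq : 1 ≤ q) (hx : 0 ≤ x) (hs : 0 ≤ s)
    (ht : 0 ≤ t) (ht1 : t ≤ 1) (hp : 0 ≤ p) (hθ : 0 ≤ θ) (hθ1 : θ ≤ 1) (hsum : p + x + s ≤ 1)
    (hT : 0 < x + s * t) (h1 : 4 * x ≤ (x + s * t) ^ q) (h2 : 16 * q ^ 2 * t ^ 2 ≤ x + s * t)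
    (h3 : 4 * q * x ≤ x + s * t) (h4 : 8 * p ≤ (x + s * t) ^ q)
    (h5 : 4 * p ≤ (1 - θ) * (x + s * t)) : OneC q p x s t θ :=
  fun a b ha hb => hc_scalar_sharp hq hx hs ht ht1 hp hθ hθ1 hsum hT h1 h2 h3 h4 h5 ha hb

/-- `OneC` for `s ≥ 1/4` and `t = t₂ / s`. -/
theorem oneC_param {q : ℕ} {x s t₂ p θ : ℝ} (hq : 1 ≤ q) (ht₂ : 0 < t₂)
    (ht₂1 : 256 * q ^ 2 * t₂ ≤ 1) (hs : 1 / 4 ≤ s) (hx : 0 ≤ x)
    (hx1 : 4 * q * x ≤ t₂ ^ q) (hp : 0 ≤ p) (hp1 : 8 * p ≤ t₂ ^ q) (hsum : p + x + s ≤ 1)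
    (hθ : 0 ≤ θ) (hθ1 : θ ≤ 1) (h5 : 4 * p ≤ (1 - θ) * t₂) : OneC q p x s (t₂ / s) θ := by
  have hs0 : 0 < s := by linarith
  have hs1 : s ≤ 1 := by linarith
  have hst : s * (t₂ / s) = t₂ := by field_simp
  have hq1 : (1 : ℝ) ≤ q := by exact_mod_cast hq
  have ht4 : t₂ / s ≤ 4 * t₂ := by
    rw [div_le_iff₀ hs0]
    nlinarith
  have ht2' : t₂ ≤ 1 / 256 := by nlinarith [sq_nonneg ((q : ℝ) - 1)]
  have hpow : t₂ ^ q ≤ (x + t₂) ^ q := pow_le_pow_left₀ ht₂.le (by linarith) q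
  have hpow1 : t₂ ^ q ≤ t₂ := by
    calc t₂ ^ q ≤ t₂ ^ 1 := pow_le_pow_of_le_one ht₂.le (by linarith) hq
      _ = t₂ := pow_one _
  refine oneC_sharp hq hx hs0.le (by positivity) (by linarith) hp hθ hθ1 hsum ?_ ?_ ?_ ?_ ?_ ?_
  all_goals rw [hst]
  · positivity
  · have : 4 * x ≤ 4 * q * x := by nlinarith
    linarith
  · have h0 : 0 ≤ t₂ / s := by positivity
    have h6 : (t₂ / s) ^ 2 ≤ (4 * t₂) ^ 2 := pow_le_pow_left₀ h0 ht4 2
    have h7 := mul_le_mul_of_nonneg_left h6 (by positivity : (0 : ℝ) ≤ 16 * q ^ 2)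
    have h8 := mul_le_mul_of_nonneg_right ht₂1 ht₂.le
    nlinarith
  · linarith
  · linarith
  · have : 0 ≤ (1 - θ) * x := mul_nonneg (by linarith) hx
    nlinarith

/-- ROW ONE. -/
theorem rowONE : RowONE := by
  intro q hq
  have hq1 : (1 : ℝ) ≤ q := by exact_mod_cast hq
  have hq0 : (0 : ℝ) < q := by linarith
  obtain ⟨t₂, ht₂⟩ : ∃ t₂ : ℝ, t₂ = 1 / (256 * q ^ 2) := ⟨_, rfl⟩
  have ht0 : 0 < t₂ := by rw [ht₂]; positivity
  have hte : 256 * q ^ 2 * t₂ = 1 := by rw [ht₂]; field_simp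
  have ht1 : t₂ ≤ 1 / 256 := by nlinarith [sq_nonneg ((q : ℝ) - 1)]
  have hpow : 0 < t₂ ^ q := by positivity
  have hpow1 : t₂ ^ q ≤ t₂ := by
    calc t₂ ^ q ≤ t₂ ^ 1 := pow_le_pow_of_le_one ht0.le (by linarith) hq
      _ = t₂ := pow_one _
  refine ⟨t₂ / (1 / 4), by positivity, ?_, t₂ ^ q / (8 * q), by positivity, ?_, 4 / t₂,
    by positivity, ?_⟩
  · rw [div_le_iff₀ (by norm_num)]; linarith
  · rw [div_le_iff₀ (by positivity)]
    nlinarith
  · intro x p th hx hx1 hp hp1 hth hth1 hC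
    rw [le_div_iff₀ (by positivity)] at hx1 hp1
    have hC' : 4 * p ≤ (1 - th) * t₂ := by
      have := mul_le_mul_of_nonneg_right hC ht0.le
      have e : 4 / t₂ * p * t₂ = 4 * p := by field_simp
      rw [e] at this
      exact this
    have hx2 : x ≤ 1 / 256 := by nlinarith
    have hp2 : p ≤ 1 / 256 := by nlinarith
    exact oneC_param hq ht0 hte.le (by norm_num) hx (by nlinarith) hp (by nlinarith)
      (by linarith) hth hth1 hC'

end Vale.Agent.P331.H318
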